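import Vale.Agent.Lib.P358.R2Closed

namespace Vale.Agent.Results.P358.A_CollisionBound

open Vale.Agent.Lib.P358

/-- **Collision (order-2 divergence) upper bound on the classical capacity of `A_{γ,ν}`.**
Fix a reference population `s ∈ (0,1)`.  For the pure input with excited population `q` and
maximal coherence the output is `ω_q = !![1 - t, z; z, t]`, `t = (1-γ) q + γ ν`,
`z² = (1-γ) q (1-q)`, and with `σ = diag(1-s, s)`
`Tr (σ^{-1/4} ω_q σ^{-1/4})² = (1-t)²/(1-s) + t²/s + 2 (1-γ) q (1-q) / √(s(1-s))`.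
If this is at most `K` for every `q ∈ [0,1]`, then `C(A_{γ,ν}) ≤ log₂ K`. -/
theorem result (γ ν s K : ℝ) (hγ : γ ∈ Set.Icc (0 : ℝ) 1)
    (hν : ν ∈ Set.Icc (0 : ℝ) 1) (hs : s ∈ Set.Ioo (0 : ℝ) 1)
    (hK : ∀ q ∈ Set.Icc (0 : ℝ) 1,
      (1 - ((1 - γ) * q + γ * ν)) ^ 2 / (1 - s) + ((1 - γ) * q + γ * ν) ^ 2 / s
        + 2 * (1 - γ) * q * (1 - q) / Real.sqrt (s * (1 - s)) ≤ K) :
    capacity γ ν ≤ ((Real.logb 2 K : ℝ) : EReal) :=
  capacity_le_collision γ ν s K hγ hν hs hK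

end Vale.Agent.Results.P358.A_CollisionBound
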