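import Vale.Agent.Lib.P358.R2Closed

namespace Vale.Agent.Results.P358.A_DampingClosedForm

open Vale.Agent.Lib.P358

/-- **Closed-form upper bounds on the classical capacity of the amplitude-damping channel.**
For every `r > 0` with `(1-γ)(1+r²) < 2r`,
`C(A_{γ,0}) ≤ log₂ ( 2γ(1+r²) / ( r (2r - (1-γ)(1+r²)) ) )`.
The best choice of `r` is the root `r > 1` of `(1-γ)(1+r²)² = 4r`. -/
theorem result (γ r : ℝ) (hγ : γ ∈ Set.Icc (0 : ℝ) 1) (hr : 0 < r)
    (hD : (1 - γ) * (1 + r ^ 2) < 2 * r) :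
    capacity γ 0 ≤
      ((Real.logb 2 (2 * γ * (1 + r ^ 2) / (r * (2 * r - (1 - γ) * (1 + r ^ 2)))) : ℝ) : EReal) :=
  capacity_ad_le_closed γ r hγ hr hD

end Vale.Agent.Results.P358.A_DampingClosedForm
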