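import Vale.Agent.Lib.P358.R2Closed

namespace Vale.Agent.Results.P358.A_NumericComparison

open Vale.Agent.Lib.P358

/-- binary entropy in bits -/
noncomputable def h₂ (x : ℝ) : ℝ := -(x * Real.logb 2 x) - (1 - x) * Real.logb 2 (1 - x)

/-- the quantity `h₂(p) + h₂((1-γ)p) - h₂(γp)` whose maximum over `p ∈ [0,1]` is the
entanglement-assisted capacity of the amplitude-damping channel `A_{γ,0}` -/
noncomputable def eaValue (γ p : ℝ) : ℝ := h₂ p + h₂ ((1 - γ) * p) - h₂ (γ * p)

lemma logb_le_of_pow_le {x : ℝ} (hx : 0 < x) (p q : ℕ) (hq : 0 < q) (h : x ^ q ≤ 2 ^ p) :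
    Real.logb 2 x ≤ p / q := by
  have hq' : (0 : ℝ) < q := by exact_mod_cast hq
  have h1 : Real.logb 2 (x ^ q) ≤ Real.logb 2 (2 ^ p) :=
    Real.logb_le_logb_of_le (by norm_num) (pow_pos hx q) h
  rw [Real.logb_pow, Real.logb_pow, Real.logb_self_eq_one (by norm_num), mul_one] at h1
  rw [le_div_iff₀ hq']
  linarith

lemma lt_logb_of_pow_lt {x : ℝ} (hx : 0 < x) (p q : ℕ) (hq : 0 < q) (h : 2 ^ p < x ^ q) :
    (p : ℝ) / q < Real.logb 2 x := by
  have hq' : (0 : ℝ) < q := by exact_mod_cast hq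
  have h1 : Real.logb 2 (2 ^ p) < Real.logb 2 (x ^ q) :=
    Real.logb_lt_logb (by norm_num) (by positivity) h
  rw [Real.logb_pow, Real.logb_pow, Real.logb_self_eq_one (by norm_num), mul_one] at h1
  rw [div_lt_iff₀ hq']
  linarith

/-- upper bound for the logarithm of a number below one -/
lemma logb_le_neg {x : ℝ} (hx : 0 < x) (p q : ℕ) (hq : 0 < q) (h : x ^ q * 2 ^ p ≤ 1) :
    Real.logb 2 x ≤ -((p : ℝ) / q) := by
  have hq' : (0 : ℝ) < q := by exact_mod_cast hq
  have h1 : Real.logb 2 (x ^ q * 2 ^ p) ≤ Real.logb 2 1 :=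
    Real.logb_le_logb_of_le (by norm_num) (by positivity) h
  rw [Real.logb_mul (by positivity) (by positivity), Real.logb_pow, Real.logb_pow,
    Real.logb_self_eq_one (by norm_num), mul_one, Real.logb_one] at h1
  rw [le_neg, div_le_iff₀ hq']
  linarith

/-- lower bound for the logarithm of a number below one -/
lemma neg_le_logb {x : ℝ} (hx : 0 < x) (p q : ℕ) (hq : 0 < q) (h : 1 ≤ x ^ q * 2 ^ p) :
    -((p : ℝ) / q) ≤ Real.logb 2 x := by
  have hq' : (0 : ℝ) < q := by exact_mod_cast hq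
  have h1 : Real.logb 2 1 ≤ Real.logb 2 (x ^ q * 2 ^ p) :=
    Real.logb_le_logb_of_le (by norm_num) (by norm_num) h
  rw [Real.logb_mul (by positivity) (by positivity), Real.logb_pow, Real.logb_pow,
    Real.logb_self_eq_one (by norm_num), mul_one, Real.logb_one] at h1
  have h2 : (p : ℝ) / q + Real.logb 2 x = (q * Real.logb 2 x + p) / q := by field_simp; ring
  have h3 : 0 ≤ (q * Real.logb 2 x + p) / q := div_nonneg h1 hq'.le
  linarith

lemma cap_le (γ r K B : ℝ) (hγ : γ ∈ Set.Icc (0 : ℝ) 1) (hr : 0 < r)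
    (hD : (1 - γ) * (1 + r ^ 2) < 2 * r)
    (hK : 2 * γ * (1 + r ^ 2) / (r * (2 * r - (1 - γ) * (1 + r ^ 2))) = K)
    (hB : Real.logb 2 K ≤ B) : capacity γ 0 ≤ ((B : ℝ) : EReal) := by
  refine (capacity_ad_le_closed γ r hγ hr hD).trans ?_
  rw [EReal.coe_le_coe_iff, hK]
  exact hB

/-- **The collision bound beats both earlier upper bounds.**  At `γ = 1/2, 7/10, 9/10` the
classical capacity of the amplitude-damping channel is at most `0.65`, `0.49`, `0.265`, which is
below `log₂(1 + √(1-γ))` and below the value at `p = 1/2` of the function whose maximum is the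
entanglement-assisted capacity. -/
theorem result :
    (capacity (1 / 2) 0 ≤ ((65 / 100 : ℝ) : EReal) ∧
      (77 / 100 : ℝ) < Real.logb 2 (1 + Real.sqrt (1 - 1 / 2)) ∧ eaValue (1 / 2) (1 / 2) = 1) ∧
    (capacity (7 / 10) 0 ≤ ((49 / 100 : ℝ) : EReal) ∧
      (63 / 100 : ℝ) < Real.logb 2 (1 + Real.sqrt (1 - 7 / 10)) ∧
      (60 / 100 : ℝ) < eaValue (7 / 10) (1 / 2)) ∧
    (capacity (9 / 10) 0 ≤ ((265 / 1000 : ℝ) : EReal) ∧
      (39 / 100 : ℝ) < Real.logb 2 (1 + Real.sqrt (1 - 9 / 10)) ∧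
      (28 / 100 : ℝ) < eaValue (9 / 10) (1 / 2)) := by
  have hhalf : Real.logb 2 (1 / 2) = -1 := by
    rw [one_div, Real.logb_inv, Real.logb_self_eq_one (by norm_num)]
  refine ⟨⟨?_, ?_, ?_⟩, ⟨?_, ?_, ?_⟩, ⟨?_, ?_, ?_⟩⟩
  · apply cap_le (1 / 2) (8 / 5) (445 / 284) _ ⟨by norm_num, by norm_num⟩ (by norm_num)
      (by norm_num) (by norm_num)
    have := logb_le_of_pow_le (x := 445 / 284) (by norm_num) 13 20 (by norm_num) (by norm_num)
    norm_num at this ⊢
    exact this
  · have hs : (7071 / 10000 : ℝ) ≤ Real.sqrt (1 - 1 / 2) := Real.le_sqrt_of_sq_le (by norm_num)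
    have h1 := lt_logb_of_pow_lt (x := 17071 / 10000) (by norm_num) 77 100 (by norm_num)
      (by norm_num)
    have h2 : Real.logb 2 (17071 / 10000) ≤ Real.logb 2 (1 + Real.sqrt (1 - 1 / 2)) :=
      Real.logb_le_logb_of_le (by norm_num) (by norm_num) (by linarith)
    norm_num at h1 h2 ⊢
    linarith
  · have e : (1 - 1 / 2 : ℝ) = 1 / 2 := by norm_num
    simp only [eaValue, h₂, e, hhalf]
    ring
  · apply cap_le (7 / 10) 2 (7 / 5) _ ⟨by norm_num, by norm_num⟩ (by norm_num)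
      (by norm_num) (by norm_num)
    have := logb_le_of_pow_le (x := 7 / 5) (by norm_num) 49 100 (by norm_num) (by norm_num)
    norm_num at this ⊢
    exact this
  · have hs : (5477 / 10000 : ℝ) ≤ Real.sqrt (1 - 7 / 10) := Real.le_sqrt_of_sq_le (by norm_num)
    have h1 := lt_logb_of_pow_lt (x := 15477 / 10000) (by norm_num) 63 100 (by norm_num)
      (by norm_num)
    have h2 : Real.logb 2 (15477 / 10000) ≤ Real.logb 2 (1 + Real.sqrt (1 - 7 / 10)) :=
      Real.logb_le_logb_of_le (by norm_num) (by norm_num) (by linarith)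
    norm_num at h1 h2 ⊢
    linarith
  · have a1 := logb_le_neg (x := 3 / 20) (by norm_num) 27 10 (by norm_num) (by norm_num)
    have a2 := logb_le_neg (x := 17 / 20) (by norm_num) 23 100 (by norm_num) (by norm_num)
    have a3 := neg_le_logb (x := 7 / 20) (by norm_num) 38 25 (by norm_num) (by norm_num)
    have a4 := neg_le_logb (x := 13 / 20) (by norm_num) 63 100 (by norm_num) (by norm_num)
    have e1 : ((1 : ℝ) - 7 / 10) * (1 / 2) = 3 / 20 := by norm_num
    have e2 : ((7 : ℝ) / 10) * (1 / 2) = 7 / 20 := by norm_num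
    have e3 : (1 : ℝ) - 3 / 20 = 17 / 20 := by norm_num
    have e4 : (1 : ℝ) - 7 / 20 = 13 / 20 := by norm_num
    have e5 : (1 - 1 / 2 : ℝ) = 1 / 2 := by norm_num
    simp only [eaValue, h₂, e1, e2, e3, e4, e5, hhalf]
    norm_num at a1 a2 a3 a4 ⊢
    linarith
  · apply cap_le (9 / 10) (16 / 5) (12645 / 10552) _ ⟨by norm_num, by norm_num⟩ (by norm_num)
      (by norm_num) (by norm_num)
    have := logb_le_of_pow_le (x := 12645 / 10552) (by norm_num) 53 200 (by norm_num)
      (by norm_num)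
    norm_num at this ⊢
    exact this
  · have hs : (3162 / 10000 : ℝ) ≤ Real.sqrt (1 - 9 / 10) := Real.le_sqrt_of_sq_le (by norm_num)
    have h1 := lt_logb_of_pow_lt (x := 13162 / 10000) (by norm_num) 39 100 (by norm_num)
      (by norm_num)
    have h2 : Real.logb 2 (13162 / 10000) ≤ Real.logb 2 (1 + Real.sqrt (1 - 9 / 10)) :=
      Real.logb_le_logb_of_le (by norm_num) (by norm_num) (by linarith)
    norm_num at h1 h2 ⊢
    linarith
  · have a1 := logb_le_neg (x := 1 / 20) (by norm_num) 108 25 (by norm_num) (by norm_num)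
    have a2 := logb_le_neg (x := 19 / 20) (by norm_num) 7 100 (by norm_num) (by norm_num)
    have a3 := neg_le_logb (x := 9 / 20) (by norm_num) 231 200 (by norm_num) (by norm_num)
    have a4 := neg_le_logb (x := 11 / 20) (by norm_num) 173 200 (by norm_num) (by norm_num)
    have e1 : ((1 : ℝ) - 9 / 10) * (1 / 2) = 1 / 20 := by norm_num
    have e2 : ((9 : ℝ) / 10) * (1 / 2) = 9 / 20 := by norm_num
    have e3 : (1 : ℝ) - 1 / 20 = 19 / 20 := by norm_num
    have e4 : (1 : ℝ) - 9 / 20 = 11 / 20 := by norm_num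
    have e5 : (1 - 1 / 2 : ℝ) = 1 / 2 := by norm_num
    simp only [eaValue, h₂, e1, e2, e3, e4, e5, hhalf]
    norm_num at a1 a2 a3 a4 ⊢
    linarith

end Vale.Agent.Results.P358.A_NumericComparison
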