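import Vale.Agent.Lib.P358.Main

namespace Vale.Agent.Results.P358.AmplitudeDamping

open Vale.Agent.Lib.P358

/-- **An explicit upper bound on the classical capacity of the amplitude-damping channel**
`A_{γ,0}`, `0 < γ < 1`:
`C(A_{γ,0}) ≤ max { log₂((2-γ)/γ), γ log₂((2-γ)/γ) + (1-γ) log₂((2+γ-2√(2γ))/(1-γ)) }`.
The second entry equals `h₂(1-γ) + γ log₂(2-γ) + (1-γ) log₂(2+γ-2√(2γ))`. -/
theorem result (γ : ℝ) (h0 : 0 < γ) (h1 : γ < 1) :
    capacity γ 0 ≤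
      ((max (Real.logb 2 ((2 - γ) / γ))
        (γ * Real.logb 2 ((2 - γ) / γ)
          + (1 - γ) * Real.logb 2 ((2 + γ - 2 * Real.sqrt (2 * γ)) / (1 - γ))) : ℝ) : EReal) := by
  set u := Real.sqrt (2 * γ) with hu
  set c := Real.sqrt (1 - γ) with hc
  have hu2 : u ^ 2 = 2 * γ := Real.sq_sqrt (by linarith)
  have hc2 : c ^ 2 = 1 - γ := Real.sq_sqrt (by linarith)
  have hu0 : 0 ≤ u := Real.sqrt_nonneg _
  have hc0 : 0 ≤ c := Real.sqrt_nonneg _
  have hu_lt : u < 2 := by nlinarith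
  have hS1 : 0 < 2 + γ - 2 * u := by nlinarith [sq_nonneg (2 - u)]
  have h := capacity_le_of_certificate γ 0 (2 - γ) (2 + γ - 2 * u) (c * (u - 1)) (1 - γ)
    ⟨h0.le, h1.le⟩ ⟨le_rfl, zero_le_one⟩ ⟨by linarith, by linarith⟩ (by linarith) hS1
    (by linarith) (by nlinarith [sq_nonneg (u - 1)])
    (by
      have e : (c - c * (u - 1)) ^ 2 = c ^ 2 * (2 - u) ^ 2 := by ring
      rw [← hc, e, hc2]
      nlinarith)
    (by
      have e : (c + c * (u - 1)) ^ 2 = c ^ 2 * u ^ 2 := by ring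
      rw [← hc, e, hc2, hu2]
      have hγ : γ = u ^ 2 / 2 := by linarith
      have key : 0 ≤ u ^ 4 / 2 - 4 * u + 4 := by
        nlinarith [sq_nonneg (u ^ 2 - 8 / 5), sq_nonneg (u - 5 / 4)]
      nlinarith)
    (by
      have e : (c * (u - 1)) ^ 2 = c ^ 2 * (u - 1) ^ 2 := by ring
      rw [e, hc2]
      nlinarith)
  have e1 : (1 : ℝ) - (1 - γ) = γ := by ring
  simpa [e1] using h

end Vale.Agent.Results.P358.AmplitudeDamping
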