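import Vale.Agent.Results.P358.A_CollisionBound
import Vale.Agent.Results.P358.A_DampingClosedForm
import Vale.Agent.Results.P358.A_NumericComparison
import Vale.Agent.Results.P358.AmplitudeDamping

/-!
# P358: upper bounds on the classical capacity of `A_{γ,ν}`, in one statement

(1) the collision (order-2 divergence) bound for all `γ, ν`;
(2) its closed form for the amplitude-damping channel `ν = 0`;
(3) certified numbers at `γ = 1/2, 7/10, 9/10`, compared with the two earlier upper bounds;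
(4) an older closed-form bound for `ν = 0`.
-/

namespace Vale.Agent.Results.P358.A_Combined

open Vale.Agent.Lib.P358
open Vale.Agent.Results.P358.A_NumericComparison (eaValue)

theorem result :
    (∀ (γ ν s K : ℝ), γ ∈ Set.Icc (0 : ℝ) 1 → ν ∈ Set.Icc (0 : ℝ) 1 → s ∈ Set.Ioo (0 : ℝ) 1 →
      (∀ q ∈ Set.Icc (0 : ℝ) 1,
        (1 - ((1 - γ) * q + γ * ν)) ^ 2 / (1 - s) + ((1 - γ) * q + γ * ν) ^ 2 / s
          + 2 * (1 - γ) * q * (1 - q) / Real.sqrt (s * (1 - s)) ≤ K) →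
      capacity γ ν ≤ ((Real.logb 2 K : ℝ) : EReal)) ∧
    (∀ (γ r : ℝ), γ ∈ Set.Icc (0 : ℝ) 1 → 0 < r → (1 - γ) * (1 + r ^ 2) < 2 * r →
      capacity γ 0 ≤
        ((Real.logb 2 (2 * γ * (1 + r ^ 2) / (r * (2 * r - (1 - γ) * (1 + r ^ 2)))) : ℝ) :
          EReal)) ∧
    ((capacity (1 / 2) 0 ≤ ((65 / 100 : ℝ) : EReal) ∧
        (77 / 100 : ℝ) < Real.logb 2 (1 + Real.sqrt (1 - 1 / 2)) ∧ eaValue (1 / 2) (1 / 2) = 1) ∧
      (capacity (7 / 10) 0 ≤ ((49 / 100 : ℝ) : EReal) ∧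
        (63 / 100 : ℝ) < Real.logb 2 (1 + Real.sqrt (1 - 7 / 10)) ∧
        (60 / 100 : ℝ) < eaValue (7 / 10) (1 / 2)) ∧
      (capacity (9 / 10) 0 ≤ ((265 / 1000 : ℝ) : EReal) ∧
        (39 / 100 : ℝ) < Real.logb 2 (1 + Real.sqrt (1 - 9 / 10)) ∧
        (28 / 100 : ℝ) < eaValue (9 / 10) (1 / 2))) ∧
    (∀ γ : ℝ, 0 < γ → γ < 1 →
      capacity γ 0 ≤
        ((max (Real.logb 2 ((2 - γ) / γ))
          (γ * Real.logb 2 ((2 - γ) / γ)
            + (1 - γ) * Real.logb 2 ((2 + γ - 2 * Real.sqrt (2 * γ)) / (1 - γ))) : ℝ) : EReal)) :=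
  ⟨fun γ ν s K hγ hν hs hK => Vale.Agent.Results.P358.A_CollisionBound.result γ ν s K hγ hν hs hK,
    fun γ r hγ hr hD => Vale.Agent.Results.P358.A_DampingClosedForm.result γ r hγ hr hD,
    Vale.Agent.Results.P358.A_NumericComparison.result,
    fun γ h0 h1 => Vale.Agent.Results.P358.AmplitudeDamping.result γ h0 h1⟩

end Vale.Agent.Results.P358.A_Combined
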